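import Mathlib
import Vale.Agent.P196.Cor

/-!
# Actions of bounded type: exhaustion of the orbits by finite sets with bounded boundary
-/

open scoped Pointwise

namespace Vale.Agent.P196c

open Vale.Agent.P196 Vale.Agent.P196.Glue

theorem ncard_biUnion_le_sum {ι X : Type*} (T : Finset ι) (A : ι → Set X) (c : ι → ℕ)
    (h : ∀ i ∈ T, (A i).ncard ≤ c i) : (⋃ i ∈ T, A i).ncard ≤ ∑ i ∈ T, c i := by
  classical
  induction T using Finset.induction_on with
  | empty => simp
  | insert a U ha ih =>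
    rw [Finset.set_biUnion_insert, Finset.sum_insert ha]
    refine (Set.ncard_union_le _ _).trans ?_
    have h1 := h a (Finset.mem_insert_self a U)
    have h2 := ih fun i hi => h i (Finset.mem_insert_of_mem hi)
    omega

/-- For an action of bounded type every orbit is an increasing union of finite sets with
boundaries of bounded size. -/
theorem bt_exhaust {G X : Type*} [Group G] [MulAction G X] (S : Set G) (hSf : S.Finite)
    (hS : Subgroup.closure S = ⊤) (E : ℕ → X → X → Prop) (hE : ∀ n, Equivalence (E n))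
    (hmono : ∀ n x y, E n x y → E (n + 1) x y) (hfin : ∀ n x, {y | E n x y}.Finite)
    (hbd : ∀ g : G, ∃ C : ℕ, ∀ n x, {y | E n x y ∧ ¬ E n y (g • y)}.ncard ≤ C)
    (hsing : ∀ g : G, {x : X | ∀ n, ¬ E n x (g • x)}.Finite) (ξ : X) :
    ∃ (C : ℕ) (F : ℕ → Set X), Monotone F ∧ (∀ n, (F n).Finite) ∧
      ⋃ n, F n = MulAction.orbit G ξ ∧ ∀ n, (bdry S (F n)).ncard ≤ C := by
  classical
  choose C hC using hbd
  have hmono' : ∀ n m, n ≤ m → ∀ x y, E n x y → E m x y := by
    intro n m hnm
    induction m, hnm using Nat.le_induction with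
    | base => exact fun _ _ h => h
    | succ m _ ih => exact fun x y h => hmono m x y (ih x y h)
  let SS : Finset G := (hSf.union hSf.inv).toFinset
  have hSS : ∀ s : G, s ∈ SS ↔ s ∈ S ∨ s⁻¹ ∈ S := by
    intro s
    simp only [SS, Set.Finite.mem_toFinset, Set.mem_union, Set.mem_inv]
  let Z : Set X := (⋃ s ∈ SS, {x : X | ∀ n, ¬ E n x (s • x)}) ∪ {ξ}
  have hZ : Z.Finite := by
    refine Set.Finite.union ?_ (Set.finite_singleton ξ)
    exact SS.finite_toSet.biUnion fun s _ => hsing s
  -- every point of the orbit is equivalent to a point of `Z`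
  have hcof : ∀ y ∈ MulAction.orbit G ξ, ∃ z ∈ Z, ∃ n, E n z y := by
    rintro y ⟨g, rfl⟩
    have hg : g ∈ Submonoid.closure (S ∪ S⁻¹) := by
      rw [← Subgroup.closure_toSubmonoid, hS]
      exact Submonoid.mem_top g
    obtain ⟨l, hl, hl'⟩ := Submonoid.exists_list_of_mem_closure hg
    rw [← hl']
    clear hl' hg
    induction l with
    | nil =>
      have e : (fun m : G => m • ξ) ([] : List G).prod = ξ := by simp
      rw [e]
      exact ⟨ξ, Or.inr rfl, 0, (hE 0).refl ξ⟩
    | cons s l ih =>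
      obtain ⟨z, hz, n, hn⟩ := ih fun t ht => hl t (List.mem_cons_of_mem _ ht)
      have hs : s ∈ SS := by
        rw [hSS]
        rcases hl s List.mem_cons_self with h | h
        · exact Or.inl h
        · exact Or.inr (by simpa using h)
      have e : (fun m : G => m • ξ) (s :: l).prod = s • l.prod • ξ := by
        simp only [List.prod_cons, mul_smul]
      rw [e]
      have hn' : E n z (l.prod • ξ) := hn
      by_cases hsg : ∃ m, E m (l.prod • ξ) (s • l.prod • ξ)
      · obtain ⟨m, hm⟩ := hsg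
        exact ⟨z, hz, max n m, (hE _).trans (hmono' n _ (le_max_left _ _) _ _ hn')
          (hmono' m _ (le_max_right _ _) _ _ hm)⟩
      · push Not at hsg
        refine ⟨s • l.prod • ξ, Or.inl ?_, 0, (hE 0).refl _⟩
        have hs' : s⁻¹ ∈ SS := by
          rw [hSS] at hs ⊢
          rcases hs with h | h
          · exact Or.inr (by rwa [inv_inv])
          · exact Or.inl h
        refine Set.mem_biUnion (x := s⁻¹) hs' fun m h => ?_
        rw [inv_smul_smul] at h
        exact hsg m ((hE m).symm h)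
  let F : ℕ → Set X := fun n => {y | y ∈ MulAction.orbit G ξ ∧ ∃ z ∈ Z, E n z y}
  refine ⟨∑ q ∈ hZ.toFinset ×ˢ SS, C q.2, F, ?_, ?_, ?_, ?_⟩
  · rintro a b hab y ⟨hy, z, hz, h⟩
    exact ⟨hy, z, hz, hmono' a b hab _ _ h⟩
  · intro n
    refine (hZ.biUnion fun z _ => hfin n z).subset ?_
    rintro y ⟨_, z, hz, h⟩
    exact Set.mem_biUnion hz h
  · apply Set.Subset.antisymm
    · exact Set.iUnion_subset fun n y hy => hy.1
    · intro y hy
      obtain ⟨z, hz, n, hn⟩ := hcof y hy
      exact Set.mem_iUnion.2 ⟨n, hy, z, hz, hn⟩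
  · intro n
    have hsub : bdry S (F n) ⊆ ⋃ q ∈ hZ.toFinset ×ˢ SS,
        {y | E n q.1 y ∧ ¬ E n y (q.2 • y)} := by
      rintro y ⟨⟨hy, z, hz, hzy⟩, s, hs, hs'⟩
      have key : ∀ u : G, u • y ∉ F n → ¬ E n y (u • y) := by
        intro u hu h
        exact hu ⟨MulAction.mem_orbit_of_mem_orbit u hy, z, hz, (hE n).trans hzy h⟩
      rcases hs' with h | h
      · refine Set.mem_biUnion (x := (z, s)) ?_ ⟨hzy, key s h⟩
        rw [Finset.mem_coe, Finset.mem_product]
        exact ⟨hZ.mem_toFinset.2 hz, (hSS s).2 (Or.inl hs)⟩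
      · refine Set.mem_biUnion (x := (z, s⁻¹)) ?_ ⟨hzy, key s⁻¹ h⟩
        rw [Finset.mem_coe, Finset.mem_product]
        exact ⟨hZ.mem_toFinset.2 hz, (hSS s⁻¹).2 (Or.inr (by rwa [inv_inv]))⟩
    have hfinU : (⋃ q ∈ hZ.toFinset ×ˢ SS, {y | E n q.1 y ∧ ¬ E n y (q.2 • y)}).Finite :=
      (Finset.finite_toSet _).biUnion fun q _ => (hfin n q.1).subset fun y hy => hy.1
    refine (Set.ncard_le_ncard hsub hfinU).trans ?_
    exact ncard_biUnion_le_sum _ _ _ fun q _ => hC q.2 n q.1


/-- Actions of bounded type of infinite finitely presented simple groups are trivial. -/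
theorem bt_trivial {G X : Type*} [Group G] [Group.IsFinitelyPresented G] [IsSimpleGroup G]
    [Infinite G] [MulAction G X] (E : ℕ → X → X → Prop) (hE : ∀ n, Equivalence (E n))
    (hmono : ∀ n x y, E n x y → E (n + 1) x y) (hfin : ∀ n x, {y | E n x y}.Finite)
    (hbd : ∀ g : G, ∃ C : ℕ, ∀ n x, {y | E n x y ∧ ¬ E n y (g • y)}.ncard ≤ C)
    (hsing : ∀ g : G, {x : X | ∀ n, ¬ E n x (g • x)}.Finite) (g : G) (x : X) : g • x = x := by
  classical
  by_contra hne
  obtain ⟨r, π, hπ, _⟩ := (inferInstance : Group.IsFinitelyPresented G).out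
  let S : Set G := Set.range fun i => π (FreeGroup.of i)
  have hSf : S.Finite := Set.finite_range _
  have hS : Subgroup.closure S = ⊤ := by
    have h1 : S = π '' (Set.range FreeGroup.of) := by
      rw [← Set.range_comp]
      rfl
    rw [h1, ← MonoidHom.map_closure, FreeGroup.closure_range_of, ← MonoidHom.range_eq_map,
      MonoidHom.range_eq_top.2 hπ]
  obtain ⟨C, F, hF1, hF2, hF3, hF4⟩ := bt_exhaust S hSf hS E hE hmono hfin hbd hsing x
  obtain ⟨K, hK1, hK2, hK3⟩ := exhaust S hS x ⟨g, hne⟩ C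
  have key : ∀ A : Set X, A.Finite → A ⊆ MulAction.orbit G x → ∃ m, A ⊆ F m := by
    intro A hA
    induction A, hA using Set.Finite.induction_on with
    | empty => exact fun _ => ⟨0, Set.empty_subset _⟩
    | @insert a s _ _ ih =>
      intro hsub
      obtain ⟨m, hm⟩ := ih ((Set.subset_insert a s).trans hsub)
      have ha : a ∈ ⋃ n, F n := hF3 ▸ hsub (Set.mem_insert a s)
      obtain ⟨k, hk⟩ := Set.mem_iUnion.1 ha
      exact ⟨max m k, Set.insert_subset (hF1 (le_max_right m k) hk)
        (hm.trans (hF1 (le_max_left m k)))⟩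
  obtain ⟨m, hm⟩ := key K hK1 hK2
  have h1 := hK3 (F m) (hF2 m) hm (hF3 ▸ Set.subset_iUnion F m)
  have h2 := hF4 m
  omega

end Vale.Agent.P196c
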