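import Mathlib

/-!
# P196: connected sets of points of a `G`-set
-/

namespace Vale.Agent.P196c

/-- A set `A` of points of a `G`-set is connected (in the Schreier graph of `S`) if each nonempty
subset of `A` that is closed under the steps `y ↦ s • y`, `y ↦ s⁻¹ • y` (`s ∈ S`) inside `A` is
equal to `A`. -/
def Conn {G X : Type*} [Group G] [MulAction G X] (S : Set G) (A : Set X) : Prop :=
  ∀ A' ⊆ A, A'.Nonempty → (∀ y ∈ A', ∀ s ∈ S, (s • y ∈ A → s • y ∈ A') ∧
    (s⁻¹ • y ∈ A → s⁻¹ • y ∈ A')) → A' = A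

end Vale.Agent.P196c
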