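import Mathlib
import Vale.Agent.P196c.Chain1

/-!
# P192: the chain theorem
-/

open scoped Pointwise

namespace Vale.Agent.P196c

open Vale.Agent.P196 Vale.Agent.P196.Glue Vale.Agent.P192

universe u v

section

variable {G : Type u} [Group G]

/-- **Chain theorem.**  Let `G` be finitely presented, with only finite actions on `Y × ℤ`, `Y`
finite, commuting with the shift, `S` a finite generating set.
For every `C` the strictly increasing chains of connected finite sets with boundary at most `C`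
in `G`-sets have bounded length. -/
theorem chain_bound [Group.IsFinitelyPresented G]
    (hper : ∀ (Y : Type v) [Finite Y] (f : G →* Equiv.Perm (Y × ℤ)),
      (∀ (g : G) (y : Y) (m : ℤ), f g (y, m) = ((f g (y, 0)).1, (f g (y, 0)).2 + m)) →
        (Set.range f).Finite)
    (S : Set G) (hSf : S.Finite) (hS : Subgroup.closure S = ⊤) (C : ℕ) :
    ∃ ℓ : ℕ, ∀ (X : Type v) [MulAction G X] (x : X) (κ : ℕ → Set X),
      (∀ i, (κ i).Finite) → (∀ i, i < ℓ → κ i ⊂ κ (i + 1)) → x ∈ κ 0 →
      (∀ i, ∀ y ∈ κ i, Reach S (κ i) x y) → (∀ i, (bdry S (κ i)).ncard ≤ C) → False := by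
  classical
  obtain ⟨r, π, hπ, R, hRfin, hR⟩ := (inferInstance : Group.IsFinitelyPresented G).out
  let E0 : Set G := {1} ∪ S ∪ S⁻¹
  have hE0fin : E0.Finite := ((Set.finite_singleton 1).union hSf).union hSf.inv
  have hE01 : (1 : G) ∈ E0 := Or.inl (Or.inl rfl)
  have hE0inv : ∀ e ∈ E0, e⁻¹ ∈ E0 := by
    rintro e ((he | he) | he)
    · rw [Set.mem_singleton_iff.1 he, inv_one]; exact hE01
    · exact Or.inr (by simpa using he)
    · exact Or.inl (Or.inr he)
  have hgen : ∀ g : G, ∃ j, g ∈ E0 ^ j := by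
    intro g
    have hg : g ∈ Submonoid.closure (S ∪ S⁻¹) := by
      rw [← Subgroup.closure_toSubmonoid, hS]
      exact Submonoid.mem_top g
    induction hg using Submonoid.closure_induction with
    | mem s hs =>
      refine ⟨1, ?_⟩
      rw [pow_one]
      rcases hs with hs | hs
      · exact Or.inl (Or.inr hs)
      · exact Or.inr hs
    | one => exact ⟨0, by simp⟩
    | mul a b _ _ iha ihb =>
      obtain ⟨i, hi⟩ := iha
      obtain ⟨j, hj⟩ := ihb
      exact ⟨i + j, by rw [pow_add]; exact Set.mul_mem_mul hi hj⟩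
  choose len hlen using hgen
  let L : ℕ := 1 + Finset.univ.sup fun i : Fin r => len (π (FreeGroup.of i))
  let E : Set G := E0 ^ L
  have hE1 : (1 : G) ∈ E := Set.one_mem_pow hE01
  have hEinv : ∀ e ∈ E, e⁻¹ ∈ E := inv_mem_pow hE0inv L
  have hEa : ∀ i, π (FreeGroup.of i) ∈ E := by
    intro i
    refine Set.pow_subset_pow_right hE01 ?_ (hlen _)
    have : len (π (FreeGroup.of i)) ≤ Finset.univ.sup fun i : Fin r => len (π (FreeGroup.of i)) :=
      Finset.le_sup (f := fun i : Fin r => len (π (FreeGroup.of i))) (Finset.mem_univ i)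
    omega
  have hSE : ∀ s : G, s ∈ S ∨ s⁻¹ ∈ S → s ∈ E := by
    intro s hs
    have h1 : s ∈ E0 ^ 1 := by
      rw [pow_one]
      rcases hs with h | h
      · exact Or.inl (Or.inr h)
      · exact Or.inr (by simpa using h)
    exact Set.pow_subset_pow_right hE01 (by omega) h1
  -- words for the elements of S and their inverses
  choose wd hwd using hπ
  obtain ⟨M, hM2, hRM, hSM⟩ : ∃ M : ℕ, 2 ≤ M ∧ (∀ w ∈ R, w.toWord.length ≤ M) ∧
      ∀ s : G, s ∈ S ∨ s⁻¹ ∈ S → ∃ w : FreeGroup (Fin r), w.toWord.length ≤ M ∧ π w = s := by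
    obtain ⟨M, hM⟩ := (hRfin.image fun w => w.toWord.length).bddAbove
    have hSS : (S ∪ S⁻¹).Finite := hSf.union hSf.inv
    obtain ⟨M', hM'⟩ := (hSS.image fun s => (wd s).toWord.length).bddAbove
    refine ⟨max 2 (max M M'), le_max_left _ _, fun w hw => ?_, fun s hs => ?_⟩
    · exact (hM ⟨w, hw, rfl⟩).trans ((le_max_left _ _).trans (le_max_right _ _))
    · refine ⟨wd s, ?_, hwd s⟩
      exact (hM' ⟨s, hs.elim Or.inl fun h => Or.inr (by simpa using h), rfl⟩).trans
        ((le_max_right _ _).trans (le_max_right _ _))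
  have hπ : Function.Surjective π := fun g => ⟨wd g, hwd g⟩
  have hE0pow : ∀ k : ℕ, (E0 ^ k).Finite := by
    intro k
    induction k with
    | zero => simp
    | succ k ih => rw [pow_succ]; exact ih.mul hE0fin
  have hEpow : ∀ k : ℕ, (E ^ k).Finite := by
    intro k
    have : E ^ k = E0 ^ (L * k) := (pow_mul E0 L k).symm
    rw [this]
    exact hE0pow _
  have hfinEM : Finite ↥(E ^ M) := (hEpow M).to_subtype
  have hneEM : Nonempty ↥(E ^ M) := ⟨⟨1, Set.one_mem_pow hE1⟩⟩
  -- the set of long steps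
  set T : Set G := E ^ (M + 1) with hT
  have hTfin : T.Finite := hEpow (M + 1)
  have hTE0 : T = E0 ^ (L * (M + 1)) := (pow_mul E0 L (M + 1)).symm
  have hTinv : ∀ g ∈ T, g⁻¹ ∈ T := inv_mem_pow hEinv (M + 1)
  have hET : ∀ e ∈ E, e ∈ T := fun e he =>
    Set.pow_subset_pow_right hE1 (show 1 ≤ M + 1 by omega) (by simpa using he)
  have hMT : ∀ g ∈ E ^ M, g ∈ T := fun g hg => Set.pow_subset_pow_right hE1 (Nat.le_succ M) hg
  let CT : ℕ := T.ncard * (T.ncard * (T.ncard * C))
  let CM : ℕ := T.ncard * (T.ncard * C)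
  -- the number of codes
  let Tp : Type _ := ↥(E ^ M) × Fin CM
  have hTpfin : Finite Tp := inferInstanceAs (Finite (↥(E ^ M) × Fin CM))
  let N : ℕ := Nat.card ((Tp → Tp) × (Tp → Prop))
  obtain ⟨ℓ, hℓ⟩ := ramsey (N + 4) CT
  refine ⟨ℓ, ?_⟩
  intro X _ x κ hfin hstrict hx hconn hb
  -- monotone up to `ℓ`
  have hmono : ∀ i j, i ≤ j → j ≤ ℓ → κ i ⊆ κ j := by
    intro i j hij
    induction j, hij using Nat.le_induction with
    | base => intro _; exact subset_rfl
    | succ j _ ih => intro hj; exact (ih (by omega)).trans (hstrict j (by omega)).subset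
  -- `E0`-boundaries and translates
  have hbE0 : ∀ i, bdry E0 (κ i) ⊆ bdry S (κ i) := by
    rintro i y ⟨hy, e, he, he'⟩
    rcases he with (he | he) | he
    · rw [Set.mem_singleton_iff.1 he, inv_one, one_smul] at he'
      rcases he' with h | h <;> exact absurd hy h
    · exact ⟨hy, e, he, he'⟩
    · refine ⟨hy, e⁻¹, by simpa using he, ?_⟩
      rw [inv_inv]
      exact he'.symm
  have hbfin : ∀ i, (bdry S (κ i)).Finite := fun i => (hfin i).subset (bdry_subset _ _)
  -- points from which a long step leaves `κ i`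
  have hlongset : ∀ i, {y | y ∈ κ i ∧ ∃ g ∈ T, g • y ∉ κ i} ⊆
      Set.image2 (fun (g : G) (b : X) => g • b) T
        (Set.image2 (fun (g : G) (b : X) => g • b) T (bdry S (κ i))) := by
    rintro i y ⟨hy, g, hg, hgy⟩
    have hg' := hg
    rw [hTE0] at hg'
    obtain ⟨g', hg'', b, hb', h⟩ := cross_out hE01 _ g hg' y hy hgy
    refine ⟨g⁻¹, hTinv g hg, g' • b, ⟨g', hTE0 ▸ hg'', b, hbE0 i hb', rfl⟩, ?_⟩
    simp only
    rw [← h, inv_smul_smul]
  have hlong_fin : ∀ i, {y | y ∈ κ i ∧ ∃ g ∈ T, g • y ∉ κ i}.Finite := fun i =>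
    (hfin i).subset fun y hy => hy.1
  have hlong_card : ∀ i, {y | y ∈ κ i ∧ ∃ g ∈ T, g • y ∉ κ i}.ncard ≤ CM := by
    intro i
    have hf2 : (Set.image2 (fun (g : G) (b : X) => g • b) T (bdry S (κ i))).Finite :=
      hTfin.image2 _ (hbfin i)
    have hf1 : (Set.image2 (fun (g : G) (b : X) => g • b) T
        (Set.image2 (fun (g : G) (b : X) => g • b) T (bdry S (κ i)))).Finite :=
      hTfin.image2 _ hf2
    refine (Set.ncard_le_ncard (hlongset i) hf1).trans ?_
    rw [← Set.image_prod]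
    refine (Set.ncard_image_le (hTfin.prod hf2)).trans ?_
    rw [Set.ncard_prod]
    refine Nat.mul_le_mul_left _ ?_
    rw [← Set.image_prod]
    refine (Set.ncard_image_le (hTfin.prod (hbfin i))).trans ?_
    rw [Set.ncard_prod]
    exact Nat.mul_le_mul_left _ (hb i)
  -- crossing pairs
  let κ' : ℕ → Set X := fun i => κ (min i ℓ)
  have hmono' : ∀ i j, i ≤ j → κ' i ⊆ κ' j := fun i j hij =>
    hmono _ _ (min_le_min_right ℓ hij) (min_le_right _ _)
  let Cr : ℕ → Set (G × X) := fun i => {q | q.1 ∈ T ∧ q.2 ∈ κ' i ∧ q.1 • q.2 ∉ κ' i}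
  have hCrsub : ∀ i, Cr i ⊆ T ×ˢ {y | y ∈ κ' i ∧ ∃ g ∈ T, g • y ∉ κ' i} := by
    rintro i ⟨g, y⟩ ⟨h1, h2, h3⟩
    exact ⟨h1, h2, g, h1, h3⟩
  obtain ⟨φ, hφ1, hφ2, hφ3⟩ := hℓ Cr 0
    (by
      rintro i j k hij hjk ⟨g, y⟩ ⟨h1, h2, h3⟩ ⟨_, _, h6⟩
      exact ⟨h1, hmono' i j hij h2, fun h => h6 (hmono' j k hjk h)⟩)
    (fun i _ _ => by
      have hf : (T ×ˢ {y | y ∈ κ' i ∧ ∃ g ∈ T, g • y ∉ κ' i}).Finite :=
        hTfin.prod (hlong_fin _)
      refine ⟨hf.subset (hCrsub i), (Set.ncard_le_ncard (hCrsub i) hf).trans ?_⟩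
      rw [Set.ncard_prod]
      exact Nat.mul_le_mul_left _ (hlong_card _))
  have hφℓ : ∀ a, a ≤ N + 4 → φ a ≤ ℓ := fun a ha => by
    have := (hφ2 a ha).2
    omega
  let K : ℕ := N + 4
  let Q : ℕ → Set X := fun a => κ (φ a)
  have hκ' : ∀ a, a ≤ K → κ' (φ a) = Q a := fun a ha => by
    simp only [κ', Q, min_eq_left (hφℓ a ha)]
  have hQmono : ∀ a b, a ≤ b → b ≤ K → Q a ⊆ Q b := by
    intro a b hab hb'
    rcases hab.eq_or_lt with rfl | h
    · exact subset_rfl
    · exact hmono _ _ (hφ1 a b h).le (hφℓ b hb')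
  -- a pair crossing two consecutive chosen sets crosses all of them
  have hkey : ∀ g ∈ T, ∀ y : X, ∀ a, a < K → y ∈ Q a → g • y ∉ Q (a + 1) →
      y ∈ Q 0 ∧ g • y ∉ Q K := by
    intro g hg y a ha hy hgy
    have h1 : (g, y) ∈ Cr (φ a) := by
      refine ⟨hg, ?_, ?_⟩
      · rw [hκ' a (by omega)]; exact hy
      · rw [hκ' a (by omega)]
        exact fun h => hgy (hQmono a (a + 1) (by omega) (by omega) h)
    have h2 : (g, y) ∈ Cr (φ (a + 1)) := by
      refine ⟨hg, ?_, ?_⟩
      · rw [hκ' (a + 1) (by omega)]; exact hQmono a (a + 1) (by omega) (by omega) hy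
      · rw [hκ' (a + 1) (by omega)]; exact hgy
    have h3 := hφ3 (g, y) a (by omega) h1 h2
    have h4 := h3 0 (by omega)
    have h5 := h3 K le_rfl
    refine ⟨?_, ?_⟩
    · have := h4.2.1
      rwa [hκ' 0 (by omega)] at this
    · have := h5.2.2
      rwa [hκ' K le_rfl] at this
  -- the moving boundaries
  let Mb : ℕ → Set X := fun a => {z | z ∈ Q a ∧ ∃ e ∈ E, e • z ∈ Q K \ Q a}
  have hMbsub : ∀ a, Mb a ⊆ {y | y ∈ Q a ∧ ∃ g ∈ T, g • y ∉ Q a} := by
    rintro a z ⟨h1, e, he, h2⟩
    exact ⟨h1, e, hET e he, h2.2⟩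
  have hMbfin : ∀ a, (Mb a).Finite := fun a => (hlong_fin _).subset (hMbsub a)
  have hMbcard : ∀ a, (Mb a).ncard ≤ CM := fun a =>
    (Set.ncard_le_ncard (hMbsub a) (hlong_fin _)).trans (hlong_card _)
  have hxQ : ∀ a, a ≤ K → x ∈ Q a := fun a ha => hmono 0 _ (Nat.zero_le _) (hφℓ a ha) hx
  have hQne : ∀ a, a < K → (Q (a + 1) \ Q a).Nonempty := by
    intro a ha
    have h1 := hφ1 a (a + 1) (by omega)
    have h2 := hφℓ (a + 1) (by omega)
    have h3 := hstrict (φ a) (by omega)
    obtain ⟨y, hy1, hy2⟩ := Set.exists_of_ssubset h3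
    exact ⟨y, hmono (φ a + 1) _ (by omega) h2 hy1, hy2⟩
  have hMbne : ∀ a, a < K → (Mb a).Nonempty := by
    intro a ha
    by_contra hemp
    rw [Set.not_nonempty_iff_eq_empty] at hemp
    obtain ⟨y, hy1, hy2⟩ := hQne a ha
    have hyK : y ∈ Q K := hQmono (a + 1) K (by omega) le_rfl hy1
    have hr : ∀ z, Reach S (Q K) x z → z ∈ Q a := by
      intro z hz
      induction hz with
      | base _ => exact hxQ a (by omega)
      | step z s hz hs hsz ih =>
        by_contra hcon
        have : z ∈ Mb a := ⟨ih, s, hSE s hs, hsz, hcon⟩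
        rw [hemp] at this
        exact this
    exact hy2 (hr y (hconn _ y hyK))
  have hpex : ∀ a, ∃ p : Fin CM → X, a < K → Set.range p = Mb a := by
    intro a
    by_cases ha : a < K
    · obtain ⟨p, hp⟩ := exists_param (hMbfin a) (hMbcard a) (hMbne a ha)
      exact ⟨p, fun _ => hp⟩
    · exact ⟨fun _ => x, fun h => absurd h ha⟩
  choose p hp using hpex
  have hCM0 : 0 < CM := by
    have h1 := (Set.ncard_pos (hMbfin 0)).2 (hMbne 0 (by omega))
    exact h1.trans_le (hMbcard 0)
  have hTpne : Nonempty Tp := ⟨(⟨1, Set.one_mem_pow hE1⟩, ⟨0, hCM0⟩)⟩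
  let FF : ℕ → Set X := fun a => Q a ∪ (Q K)ᶜ
  let cd : ℕ → (Tp → Tp) × (Tp → Prop) := fun a =>
    code (fun t : Tp => (t.1 : G) • p a t.2) (FF a)
  have : Fintype ((Tp → Tp) × (Tp → Prop)) := Fintype.ofFinite _
  obtain ⟨a, ha, b, hb', hab, hcode⟩ : ∃ a ∈ Finset.range (N + 1), ∃ b ∈ Finset.range (N + 1),
      a ≠ b ∧ cd a = cd b := by
    refine Finset.exists_ne_map_eq_of_card_lt_of_maps_to (t := Finset.univ) ?_
      (fun _ _ => Finset.mem_univ _)
    rw [Finset.card_univ, ← Nat.card_eq_fintype_card, Finset.card_range]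
    omega
  obtain ⟨a, b, hab, hbN, hcode⟩ : ∃ a b, a < b ∧ b ≤ N ∧ cd a = cd b := by
    rw [Finset.mem_range] at ha hb'
    rcases lt_or_gt_of_ne hab with h' | h'
    · exact ⟨a, b, h', by omega, hcode⟩
    · exact ⟨b, a, h', by omega, hcode.symm⟩
  have hann : FF b \ FF a = Q b \ Q a := by
    ext y
    constructor
    · rintro ⟨h1 | h1, h2⟩
      · exact ⟨h1, fun h => h2 (Or.inl h)⟩
      · exact absurd (Or.inr h1) h2
    · rintro ⟨h1, h2⟩
      refine ⟨Or.inl h1, ?_⟩
      rintro (h | h)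
      · exact h2 h
      · exact h (hQmono b K (by omega) le_rfl h1)
  have hpa := hp a (by omega)
  have hpb := hp b (by omega)
  have hcodes := code_eq hcode
  have D : Glue2 E M CM (FF a) (FF b) (p a) (p b) :=
    { one_mem := hE1
      inv_mem := hEinv
      ent := by
        intro y hy e he hey
        rw [hann] at hy
        rw [hpa]
        rcases hey with h | h
        · refine ⟨h, e⁻¹, hEinv e he, ?_⟩
          rw [inv_smul_smul]
          exact ⟨hQmono b K (by omega) le_rfl hy.1, hy.2⟩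
        · exfalso
          have h1 := hkey e (hET e he) y b (by omega) hy.1
            (fun h' => h (hQmono (b + 1) K (by omega) le_rfl h'))
          exact hy.2 (hQmono 0 a (by omega) (by omega) h1.1)
      out := by
        intro y hy e he hey
        rw [hann] at hy
        rw [hpb]
        refine ⟨hy.1, e, he, ?_, fun h => hey (Or.inl h)⟩
        by_contra h
        exact hey (Or.inr h)
      near := by
        intro g hg c
        by_contra hcon
        have hz : p a c ∈ Mb a := hpa ▸ Set.mem_range_self c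
        have h1 : g • p a c ∉ Q b := fun h => hcon (Or.inl h)
        have h2 : g • p a c ∈ Q K := by
          by_contra h
          exact hcon (Or.inr h)
        have h3 := hkey g (hMT g hg) (p a c) a (by omega) hz.1
          (fun h => h1 (hQmono (a + 1) b (by omega) (by omega) h))
        exact h3.2 h2
      far := by
        intro g hg c hcon
        have hz : p b c ∈ Mb b := hpb ▸ Set.mem_range_self c
        obtain ⟨hz1, e, he, hu1, hu2⟩ := hz
        rcases hcon with h | h
        · have hT1 : e * g⁻¹ ∈ T := by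
            rw [hT, pow_succ']
            exact Set.mul_mem_mul he (inv_mem_pow hEinv M g hg)
          have e1 : (e * g⁻¹) • g • p b c = e • p b c := by rw [mul_smul, inv_smul_smul]
          have h3 := hkey _ hT1 (g • p b c) a (by omega) h (by
            rw [e1]
            exact fun h' => hu2 (hQmono (a + 1) b (by omega) (by omega) h'))
          rw [e1] at h3
          exact h3.2 hu1
        · have hu3 : e • p b c ∈ Q (b + 1) := by
            by_contra h'
            exact (hkey e (hET e he) (p b c) b (by omega) hz1 h').2 hu1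
          have hT1 : g * e⁻¹ ∈ T := by
            rw [hT, pow_succ]
            exact Set.mul_mem_mul hg (hEinv e he)
          have e1 : (g * e⁻¹) • e • p b c = g • p b c := by rw [mul_smul, inv_smul_smul]
          have h3 := hkey _ hT1 (e • p b c) (b + 1) (by omega) hu3 (by
            rw [e1]
            exact fun h' => h (hQmono (b + 1 + 1) K (by omega) le_rfl h'))
          exact hu2 (hQmono 0 b (by omega) (by omega) h3.1)
      patt := fun g hg h hh c d => hcodes.1 (⟨g, hg⟩, c) (⟨h, hh⟩, d)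
      side := fun g hg c => hcodes.2 (⟨g, hg⟩, c) }
  refine no_glue2 hper π hπ R hR hEa hM2 hRM hSM x (Or.inl (hxQ a (by omega))) ?_ ?_ D ?_
  · intro y hy
    rw [hann] at hy
    exact (hconn _ y hy.1).mono Set.subset_union_left
  · rw [hann]
    exact (hfin _).subset Set.sdiff_subset
  · rw [hann]
    obtain ⟨y, hy1, hy2⟩ := hQne a (by omega)
    exact ⟨y, hQmono (a + 1) b (by omega) (by omega) hy1, hy2⟩

end

end Vale.Agent.P196c
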