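import Mathlib
import Vale.Agent.P196.Cor
import Vale.Agent.P196c.Chain2

/-!
# Infinite simple groups have no nontrivial actions on `Y × ℤ`, `Y` finite, commuting with the shift
-/

open scoped Pointwise

namespace Vale.Agent.P196c

open Vale.Agent.P196 Vale.Agent.P196.Glue Vale.Agent.P192

universe u v

/-- Homomorphisms of an infinite simple group to finite groups are trivial. -/
theorem hom_trivial {G : Type*} [Group G] [IsSimpleGroup G] [Infinite G] {H : Type*} [Group H]
    [Finite H] (ψ : G →* H) (g : G) : ψ g = 1 := by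
  have h := no_finite_action ((MulAction.toPermHom H H).comp ψ)
  have h1 := DFunLike.congr_fun h g
  have h2 := Equiv.ext_iff.1 h1 1
  simpa using h2

theorem shift_trivial {G : Type u} [Group G] [IsSimpleGroup G] [Infinite G] {Y : Type v}
    [Finite Y] (f : G →* Equiv.Perm (Y × ℤ))
    (hf : ∀ (g : G) (y : Y) (m : ℤ), f g (y, m) = ((f g (y, 0)).1, (f g (y, 0)).2 + m)) :
    f = 1 := by
  classical
  -- the action on `Y`
  have hmul : ∀ g h (y : Y), (f (g * h) (y, 0)).1 = (f g ((f h (y, 0)).1, 0)).1 := by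
    intro g h y
    rw [map_mul, Equiv.Perm.mul_apply]
    have e : f h (y, 0) = ((f h (y, 0)).1, (f h (y, 0)).2) := rfl
    rw [e, hf g]
  have hone : ∀ y : Y, (f 1 (y, 0)).1 = y := by
    intro y
    rw [map_one, Equiv.Perm.one_apply]
  let fY : G →* Equiv.Perm Y :=
    { toFun := fun g =>
        { toFun := fun y => (f g (y, 0)).1
          invFun := fun y => (f g⁻¹ (y, 0)).1
          left_inv := fun y => by
            show (f g⁻¹ ((f g (y, 0)).1, 0)).1 = y
            rw [← hmul, inv_mul_cancel, hone]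
          right_inv := fun y => by
            show (f g ((f g⁻¹ (y, 0)).1, 0)).1 = y
            rw [← hmul, mul_inv_cancel, hone] }
      map_one' := by
        apply Equiv.ext
        intro y
        exact hone y
      map_mul' := fun g h => by
        apply Equiv.ext
        intro y
        exact hmul g h y }
  have h1 : ∀ g (y : Y), (f g (y, 0)).1 = y := by
    intro g y
    have h := no_finite_action fY
    have h2 := Equiv.ext_iff.1 (DFunLike.congr_fun h g) y
    exact h2
  -- the translation lengths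
  have hadd : ∀ g h (y : Y), (f (g * h) (y, 0)).2 = (f g (y, 0)).2 + (f h (y, 0)).2 := by
    intro g h y
    rw [map_mul, Equiv.Perm.mul_apply]
    have e : f h (y, 0) = (y, (f h (y, 0)).2) := Prod.ext (h1 h y) rfl
    rw [e, hf g]
  have h2 : ∀ g (y : Y), (f g (y, 0)).2 = 0 := by
    intro g y
    let ψ : ∀ N : ℕ, G →* Multiplicative (ZMod N) := fun N =>
      { toFun := fun g => Multiplicative.ofAdd (((f g (y, 0)).2 : ℤ) : ZMod N)
        map_one' := by
          rw [map_one, Equiv.Perm.one_apply]
          simp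
        map_mul' := fun g h => by
          rw [hadd, Int.cast_add, ofAdd_add] }
    have h3 : (((f g (y, 0)).2 : ℤ) : ZMod ((f g (y, 0)).2.natAbs + 1)) = 0 := by
      have : Finite (Multiplicative (ZMod ((f g (y, 0)).2.natAbs + 1))) :=
        inferInstanceAs (Finite (ZMod ((f g (y, 0)).2.natAbs + 1)))
      have h4 := hom_trivial (ψ ((f g (y, 0)).2.natAbs + 1)) g
      exact h4
    rw [ZMod.intCast_zmod_eq_zero_iff_dvd] at h3
    have h5 := Int.natAbs_dvd_natAbs.2 h3
    simp only [Int.natAbs_natCast] at h5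
    by_contra hne
    have h6 := Nat.le_of_dvd (Int.natAbs_pos.2 hne) h5
    omega
  ext1 g
  apply Equiv.ext
  rintro ⟨y, m⟩
  rw [hf, h1, h2, zero_add]
  rfl

theorem chain_simple {G : Type u} [Group G] [Group.IsFinitelyPresented G] [IsSimpleGroup G]
    [Infinite G] (S : Set G) (hSf : S.Finite) (hS : Subgroup.closure S = ⊤) (C : ℕ) :
    ∃ ℓ : ℕ, ∀ (X : Type v) [MulAction G X] (x : X) (κ : ℕ → Set X),
      (∀ i, (κ i).Finite) → (∀ i, i < ℓ → κ i ⊂ κ (i + 1)) → x ∈ κ 0 →
      (∀ i, ∀ y ∈ κ i, Reach S (κ i) x y) → (∀ i, (bdry S (κ i)).ncard ≤ C) → False := by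
  refine chain_bound.{u, v} ?_ S hSf hS C
  intro Y _ f hf
  rw [shift_trivial f hf]
  exact (Set.finite_singleton 1).subset (by rintro _ ⟨g, rfl⟩; rfl)

end Vale.Agent.P196c
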