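import Mathlib
import Vale.Agent.P192.Carving
import Vale.Agent.P196c.Simple
import Vale.Agent.P196c.ConnDef

/-!
# Carvings for infinite finitely presented simple groups
-/

open scoped Pointwise

namespace Vale.Agent.P196c

open Vale.Agent.P196 Vale.Agent.P196.Glue Vale.Agent.P192

universe u v

theorem Conn.reach {G X : Type*} [Group G] [MulAction G X] {S : Set G} {A : Set X}
    (h : Conn S A) {x : X} (hx : x ∈ A) : A ⊆ comp S A x := by
  have h1 := h (comp S A x) (comp_subset S A x) ⟨x, Reach.base hx⟩ (by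
    intro y hy s hs
    exact ⟨fun hA => Reach.step y s hy (Or.inl hs) hA,
      fun hA => Reach.step y s⁻¹ hy (Or.inr (by rwa [inv_inv])) hA⟩)
  exact h1.symm.subset

/-- The general form of the bound for connected subsets. -/
theorem carving_conn {G : Type u} [Group G] (S : Set G) (C ℓ : ℕ)
    (hℓ : ∀ (X : Type v) [MulAction G X] (x : X) (κ : ℕ → Set X),
      (∀ i, (κ i).Finite) → (∀ i, i < ℓ → κ i ⊂ κ (i + 1)) → x ∈ κ 0 →
      (∀ i, ∀ y ∈ κ i, Reach S (κ i) x y) → (∀ i, (bdry S (κ i)).ncard ≤ C) → False)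
    (X : Type v) [MulAction G X] (F : Set X) (hF : Carv S C F) (A : Set X) (hA : A ⊆ F)
    (hconn : Conn S A) : A.ncard ≤ (2 * C + 1) ^ ℓ * C := by
  rcases A.eq_empty_or_nonempty with rfl | ⟨x, hx⟩
  · simp
  · obtain ⟨r, z, κ, h1, h2, h3, h4, h5, h6, h7, h8⟩ := hF.heavy x (hA hx)
    have hr : r < ℓ := by
      by_contra hcon
      push Not at hcon
      exact hℓ X z κ h5 (fun i hi => h3 i (hi.trans_le hcon)) h2 h6 h7
    have hsub : A ⊆ comp S F x := (hconn.reach hx).trans (comp_mono S hA x)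
    refine (Set.ncard_le_ncard hsub (hF.finite.subset (comp_subset S F x))).trans ?_
    exact h8.trans (Nat.mul_le_mul_right _ (Nat.pow_le_pow_right (Nat.succ_pos _) hr.le))

theorem carving_simple {G : Type u} [Group G] [Group.IsFinitelyPresented G] [IsSimpleGroup G]
    [Infinite G] (S : Set G) (hSf : S.Finite) (hS : Subgroup.closure S = ⊤) (C : ℕ) :
    ∃ B : ℕ, ∀ (X : Type v) [MulAction G X] (F : Set X), Carv S C F → ∀ A ⊆ F, Conn S A →
      A.ncard ≤ B := by
  obtain ⟨ℓ, hℓ⟩ := chain_simple.{u, v} S hSf hS C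
  exact ⟨_, fun X _ F hF A hA hconn => carving_conn S C ℓ hℓ X F hF A hA hconn⟩

theorem carving_periodic {G : Type u} [Group G] [Group.IsFinitelyPresented G]
    (hper : ∀ g : G, IsOfFinOrder g) (S : Set G) (hSf : S.Finite)
    (hS : Subgroup.closure S = ⊤) (C : ℕ) :
    ∃ B : ℕ, ∀ (X : Type v) [MulAction G X] (F : Set X), Carv S C F → ∀ A ⊆ F, Conn S A →
      A.ncard ≤ B := by
  obtain ⟨ℓ, hℓ⟩ := Vale.Agent.P192.chain_bound.{u, v} hper S hSf hS C
  exact ⟨_, fun X _ F hF A hA hconn => carving_conn S C ℓ hℓ X F hF A hA hconn⟩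

end Vale.Agent.P196c
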